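import Vale.Agent.P315.H244.ZF2
import Vale.Agent.P315.H838.ClsW
import Vale.Agent.P315.H808.RatW

/-!
P315, milestone 2, row M2-H3 (helper244): the classes of the static blocks for the machines
`R2` with the ratio `H808.rW` are the classes `H763.actB` of the concrete machines.
-/

set_option autoImplicit false

open Finset

namespace Vale.Agent.P315.H244

open C H140 H808 H846
open H155 (nodeW pW posX labX)
open H638 (cnW zT ZT loT)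
open H763 (labL actB)
open H659 (toRnd)
open H95 (clsPar wd cl bx ac)

section

variable {m ℓ μ B w0 J S H Kc D1 n κr : ℕ} {vis hid : Leaf} {S0 : ℕ → ℕ}
  {C : Chain (clsPar m ℓ μ B w0 J S H (Kc + 3) D1) vis hid n} {mc : Mach} {N : ℤ} {Cn q : ℕ}
  [Nonempty (Fin ((q2 m ℓ μ B w0 J S H Kc D1 mc n N Cn q).P.M ^
    (q2 m ℓ μ B w0 J S H Kc D1 mc n N Cn q).n))]

/-- **The classes of the blocks of a top below the root.** -/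
theorem cls_R2 (hI : Inst2 (clsPar m ℓ μ B w0 J S H (Kc + 3) D1) m w0 Kc κr vis hid n S0 C)
    (K : Cut2 (q2 m ℓ μ B w0 J S H Kc D1 mc n N Cn q) C)
    (w : (q2 m ℓ μ B w0 J S H Kc D1 mc n N Cn q).Seed) {g : ℕ → ℕ} {tau : ℕ → ℝ}
    (Z : H381.ZFam (K.al w) K.smax
      (WX (K.al w) fun s J' i b =>
        (WM C mc (toRnd J w) g (labL m (Kc + 3)) s J' i b : ℝ)) tau 0)
    (hμ : 0 < μ) (hH : n ≤ H) {s a : ℕ} (hs : 1 ≤ s) (hs' : s ≤ K.smax)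
    (ha : a * 2 ^ s + 2 ^ s < n) (hg : 0 < g s) (hd : μ * g s ∣ w0) {o l : ℕ}
    (x : Fin ((2 ^ m) ^ n)) {len off : ℕ} (hc : len ≤ H - n) (hoff : off < len) {j0 : ℤ}
    (hlen : len = (K.sys w).D s)
    (hj0 : j0 * len - off = K.lo + o + H - (K.al w).S (a * 2 ^ s + 2 ^ s) x) :
    (∀ k : ℕ, H295.clsR (R2 K w Z) (rW K w) o s a l x k → (off : ℤ) ≤ (k + j0) * len) ∧
    (∀ k j : ℕ, (j : ℤ) = k + j0 →
      (actB ((2 ^ m) ^ 2 ^ s)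
          (ZT m w0 (a * 2 ^ s) (C.lab (a * 2 ^ s + 2 ^ s)
            ((x : ℕ) / (2 ^ m) ^ (a * 2 ^ s + 2 ^ s)))) (g s) len μ B
          (loT m w0 s (a * 2 ^ s) (C.lab (a * 2 ^ s + 2 ^ s)
            ((x : ℕ) / (2 ^ m) ^ (a * 2 ^ s + 2 ^ s))))
          (cnW ((2 ^ m) ^ 2 ^ s) (loT m w0 s (a * 2 ^ s) (C.lab (a * 2 ^ s + 2 ^ s)
              ((x : ℕ) / (2 ^ m) ^ (a * 2 ^ s + 2 ^ s))))
            (ZT m w0 (a * 2 ^ s) (C.lab (a * 2 ^ s + 2 ^ s)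
              ((x : ℕ) / (2 ^ m) ^ (a * 2 ^ s + 2 ^ s))) / g s)
            (zT C s (a * 2 ^ s) ((x : ℕ) / (2 ^ m) ^ (a * 2 ^ s + 2 ^ s)) 0))
          (cnW ((2 ^ m) ^ 2 ^ s) (loT m w0 s (a * 2 ^ s) (C.lab (a * 2 ^ s + 2 ^ s)
              ((x : ℕ) / (2 ^ m) ^ (a * 2 ^ s + 2 ^ s))))
            (ZT m w0 (a * 2 ^ s) (C.lab (a * 2 ^ s + 2 ^ s)
              ((x : ℕ) / (2 ^ m) ^ (a * 2 ^ s + 2 ^ s))) / g s)
            (zT C s (a * 2 ^ s) ((x : ℕ) / (2 ^ m) ^ (a * 2 ^ s + 2 ^ s)) ((2 ^ m) ^ 2 ^ s)))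
          l off (labL m (Kc + 3) s (C.lab (a * 2 ^ s + 2 ^ s)
            ((x : ℕ) / (2 ^ m) ^ (a * 2 ^ s + 2 ^ s))))
          (hist (clsPar m ℓ μ B w0 J S H (Kc + 3) D1) (toRnd J w) vis hid
            (rd (clsPar m ℓ μ B w0 J S H (Kc + 3) D1) mc (toRnd J w) vis hid)
            (a * 2 ^ s + 2 ^ s) ((x : ℕ) / (2 ^ m) ^ (a * 2 ^ s + 2 ^ s))
            (C.lab (a * 2 ^ s + 2 ^ s) ((x : ℕ) / (2 ^ m) ^ (a * 2 ^ s + 2 ^ s))) s) j ↔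
        H295.clsR (R2 K w Z) (rW K w) o s a l x k)) := by
  have hi : (x : ℕ) / (2 ^ m) ^ (a * 2 ^ s + 2 ^ s) < (2 ^ m) ^ (n - (a * 2 ^ s + 2 ^ s)) :=
    Along.quot_lt (M := 2 ^ m) (by positivity) ha.le x
  have hw := hI.path.w0_pos
  have hZ0 : 0 < wd m w0 (a * 2 ^ s) (cl (C.lab (a * 2 ^ s + 2 ^ s)
      ((x : ℕ) / (2 ^ m) ^ (a * 2 ^ s + 2 ^ s)))) := H95.wd_pos hw _ _
  have hr : rW K w s a x = (K.al w).W (a * 2 ^ s + 2 ^ s)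
      ((x : ℕ) / (2 ^ m) ^ (a * 2 ^ s + 2 ^ s)) /
      (((2 ^ m) ^ 2 ^ s * wd m w0 (a * 2 ^ s) (cl (C.lab (a * 2 ^ s + 2 ^ s)
        ((x : ℕ) / (2 ^ m) ^ (a * 2 ^ s + 2 ^ s)))) : ℕ) : ℝ) := by
    have e1 : (a + 1) * 2 ^ s = a * 2 ^ s + 2 ^ s := by ring
    rw [rW_of_lt K w x (by rw [e1]; exact ha), e1, H869.Units.wd_add]
  exact H838.cls_top (K.al w) (R2 K w Z) (r := rW K w)
    (WZ := fun b => (WM C mc (toRnd J w) g (labL m (Kc + 3)) s (a * 2 ^ s + 2 ^ s)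
      ((x : ℕ) / (2 ^ m) ^ (a * 2 ^ s + 2 ^ s)) b : ℝ))
    (V := VN C mc (toRnd J w) (g s) s (a * 2 ^ s) ((x : ℕ) / (2 ^ m) ^ (a * 2 ^ s + 2 ^ s)))
    (H := H) ((K.al w).W_pos K.hM _ _) (fun k => R2_m K w Z hs hs' ha o x k)
    (fun κ => by
      show ((WM C mc (toRnd J w) g (labL m (Kc + 3)) s (a * 2 ^ s + 2 ^ s)
        ((x : ℕ) / (2 ^ m) ^ (a * 2 ^ s + 2 ^ s)) ((κ : ℤ) - H) : ℕ) : ℝ) = _
      rw [WM_V])
    (fun κ => VN_anti hI hμ hg hd ha.le hi κ) (c := H - n)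
    (fun b b' h h' => by
      show ((WM C mc (toRnd J w) g (labL m (Kc + 3)) s (a * 2 ^ s + 2 ^ s)
        ((x : ℕ) / (2 ^ m) ^ (a * 2 ^ s + 2 ^ s)) b : ℕ) : ℝ) = _
      rw [WM_neg mc (toRnd J w) ha.le hH h h'])
    (Nat.mul_pos (by positivity) hZ0) hr hc hoff hlen hj0

end

end Vale.Agent.P315.H244
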