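import Vale.Agent.P315.H244.WT
import Vale.Agent.P315.H846.Mk
import Vale.Agent.P315.H869.Units
import Vale.Agent.P315.H95.LightFree
import Vale.Agent.P315.H638.NetW

/-!
P315, milestone 2, row M2-H3, (H3a) (helper244): the value seen by the machines of `H155/MachW`
which have the coarse ends of the comparison path is a family `ZFam`; root exception.
-/

set_option autoImplicit false

open Finset

namespace Vale.Agent.P315.H244

open C H140 H808 H846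
open H155 (nodeW pW posX labX)
open H801 (posN)
open H638 (cnW)
open H95 (clsPar wd cl bx ac InBox PathOK mass)

/-- Number of the coarse grid point below the position `z`; grid points = `lo + x (K Z / g)`
(the same number as `cnW K lo (Z / g) z` if `g ∣ Z`). -/
def cg (K Z g lo z : ℕ) : ℕ := (z - lo) * g / (K * Z)

section

variable {m ℓ μ B w0 J S H Kc D1 n : ℕ} {vis hid : Leaf}

/-- Position of the left end of the box of the label `a` of the level `J`. -/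
def loB (m w0 s J a : ℕ) : ℕ := bx a * ((2 ^ m) ^ 2 ^ s * wd m w0 (J - 2 ^ s) (cl a))

/-- Node of the coarse position below the position `z`, for the top of level `J` with label `a`. -/
def cnd (m w0 : ℕ) (g : ℕ → ℕ) (s J a z : ℕ) : ℕ :=
  cnW ((2 ^ m) ^ 2 ^ s) (loB m w0 s J a) (wd m w0 (J - 2 ^ s) (cl a) / g s) z * (2 ^ m) ^ 2 ^ s

variable (C : Chain (clsPar m ℓ μ B w0 J S H Kc D1) vis hid n) (mc : Mach) (ω : Rnd)
  (g : ℕ → ℕ) (LB : ℕ → ℕ → List ℕ)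

/-- Costs on the nodes of the machines of scale `s` in the top `(J', i)` of the comparison path, at
the own index `b` of the top. -/
noncomputable def nodeT (s J' i : ℕ) (b : ℤ) : ℕ → ℕ → ℕ → ℕ :=
  UT (clsPar m ℓ μ B w0 J S H Kc D1) mc ω vis hid J' i (C.lab J' i) s
    (labX ((2 ^ m) ^ 2 ^ s) (g s) (LB s (C.lab J' i)))
    (posX ((2 ^ m) ^ 2 ^ s) (wd m w0 (J' - 2 ^ s) (cl (C.lab J' i))) (g s) μ B
      (loB m w0 s J' (C.lab J' i))) b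

/-- Value of the machines with the coarse ends of the comparison path. -/
noncomputable def WM (s J' i : ℕ) (b : ℤ) : ℕ :=
  H220.WD ((2 ^ m) ^ 2 ^ s + 2) (pW ((2 ^ m) ^ 2 ^ s) (g s) (LB s (C.lab J' i)))
    (cnd m w0 g s J' (C.lab J' i) (C.pos (i * (2 ^ m) ^ J')))
    (cnd m w0 g s J' (C.lab J' i) (C.pos ((i + 1) * (2 ^ m) ^ J')))
    (nodeT C mc ω g LB s J' i b)

/-- The costs in round `κ` are those of `H155.nodeW` on the history of the machines. -/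
theorem nodeW_hist (s J' i κ : ℕ) :
    nodeW ((2 ^ m) ^ 2 ^ s) (wd m w0 (J' - 2 ^ s) (cl (C.lab J' i))) (g s) μ B
      (bx (C.lab J' i) * ((2 ^ m) ^ 2 ^ s * wd m w0 (J' - 2 ^ s) (cl (C.lab J' i))))
      (LB s (C.lab J' i))
      (hist (clsPar m ℓ μ B w0 J S H Kc D1) ω vis hid
        (rd (clsPar m ℓ μ B w0 J S H Kc D1) mc ω vis hid) J' i (C.lab J' i) s) κ =
      nodeT C mc ω g LB s J' i ((κ : ℤ) - H) := rfl

/-- The value in round `κ`. -/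
theorem WM_nat (s J' i κ : ℕ) :
    H220.WD ((2 ^ m) ^ 2 ^ s + 2) (pW ((2 ^ m) ^ 2 ^ s) (g s) (LB s (C.lab J' i)))
      (cnd m w0 g s J' (C.lab J' i) (C.pos (i * (2 ^ m) ^ J')))
      (cnd m w0 g s J' (C.lab J' i) (C.pos ((i + 1) * (2 ^ m) ^ J')))
      (nodeW ((2 ^ m) ^ 2 ^ s) (wd m w0 (J' - 2 ^ s) (cl (C.lab J' i))) (g s) μ B
        (bx (C.lab J' i) * ((2 ^ m) ^ 2 ^ s * wd m w0 (J' - 2 ^ s) (cl (C.lab J' i))))
        (LB s (C.lab J' i))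
        (hist (clsPar m ℓ μ B w0 J S H Kc D1) ω vis hid
          (rd (clsPar m ℓ μ B w0 J S H Kc D1) mc ω vis hid) J' i (C.lab J' i) s) κ) =
      WM C mc ω g LB s J' i ((κ : ℤ) - H) := rfl

end

/-! ### Coarse grid -/

theorem cnW_le {K Z g lo z : ℕ} (hg : 0 < g) (hZ : 0 < Z) (hd : g ∣ Z)
    (h : z ≤ lo + 2 * (K * Z)) : cnW K lo (Z / g) z ≤ 2 * g := by
  obtain ⟨c, rfl⟩ := hd
  have hc : 0 < c := Nat.pos_of_mul_pos_left hZ
  rw [Nat.mul_div_cancel_left _ hg]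
  unfold cnW
  refine Nat.div_le_of_le_mul ?_
  calc z - lo ≤ 2 * (K * (g * c)) := by omega
    _ = K * c * (2 * g) := by ring

theorem cnW_spec {K η lo z : ℕ} (hK : 0 < K) (hη : 0 < η) (h1 : lo ≤ z) :
    lo + cnW K lo η z * K * η ≤ z ∧ z ≤ lo + cnW K lo η z * K * η + K * η := by
  unfold cnW
  have hKc : 0 < K * η := Nat.mul_pos hK hη
  have h2 := Nat.div_mul_le_self (z - lo) (K * η)
  have h3 := Nat.lt_div_mul_add (a := z - lo) hKc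
  have e3 : (z - lo) / (K * η) * K * η = (z - lo) / (K * η) * (K * η) := by ring
  rw [e3]
  omega

theorem posN_grid {μ g Z lo B x : ℕ} (hμ : 0 < μ) (hg : 0 < g) (hd : μ * g ∣ Z) (hl : μ ∣ lo)
    (hB : lo + x * (Z / g) ≤ B) : posN μ B lo Z g x = lo + x * (Z / g) := by
  obtain ⟨c, rfl⟩ := hd
  obtain ⟨l, rfl⟩ := hl
  have e1 : μ * g * c / g = μ * c := by
    rw [mul_comm μ g, mul_assoc, Nat.mul_div_cancel_left _ hg]
  have e2 : x * (μ * g * c) / g = μ * (x * c) := by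
    have : x * (μ * g * c) = g * (μ * (x * c)) := by ring
    rw [this, Nat.mul_div_cancel_left _ hg]
  have e3 : x * (μ * c) = μ * (x * c) := by ring
  rw [e1, e3] at hB ⊢
  unfold posN
  rw [e2, ← Nat.mul_add, Nat.mul_div_cancel_left _ hμ]
  rw [← Nat.mul_add] at hB
  rw [Nat.min_eq_left ((Nat.le_div_iff_mul_le hμ).2 (by rw [mul_comm]; exact hB))]

/-- The coarse node below a position. -/
theorem coarse {K Z g μ B lo z : ℕ} (hμ : 0 < μ) (hg : 0 < g) (hK : 0 < K) (hZ : 0 < Z)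
    (hd : μ * g ∣ Z) (hl : μ ∣ lo) (h1 : lo ≤ z) (h2 : z ≤ lo + 2 * (K * Z)) (hB : z ≤ B) :
    cnW K lo (Z / g) z * K ≤ 2 * K * g ∧
      posX K Z g μ B lo (cnW K lo (Z / g) z * K) ≤ z ∧
      z ≤ posX K Z g μ B lo (cnW K lo (Z / g) z * K) + K * (Z / g) := by
  have hgZ : g ∣ Z := (Dvd.intro_left _ rfl).trans hd
  have hη : 0 < Z / g := Nat.div_pos (Nat.le_of_dvd hZ hgZ) hg
  have h3 := cnW_le (lo := lo) hg hZ hgZ h2
  have h4 := cnW_spec hK hη h1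
  have h5 : cnW K lo (Z / g) z * K ≤ 2 * K * g := by
    calc _ ≤ 2 * g * K := Nat.mul_le_mul_right _ h3
      _ = _ := by ring
  refine ⟨h5, ?_⟩
  unfold posX
  rw [Nat.mod_eq_of_lt (by omega), posN_grid hμ hg hd hl (h4.1.trans hB)]
  exact h4

/-! ### The two-sided bound -/

theorem penOK_cls {m ℓ μ B w0 J S H Kc D1 : ℕ} : PenOK (clsPar m ℓ μ B w0 J S H Kc D1) := by
  intro j e a x hx
  obtain ⟨a', ha, hx'⟩ := mem_desc_succ.1 hx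
  exact ⟨a', ha, hx', (H95.pen_add ha hx').le⟩

section

variable {m ℓ μ B w0 J S H Kc D1 n κr : ℕ} {vis hid : Leaf} {S0 : ℕ → ℕ}
  {C : Chain (clsPar m ℓ μ B w0 J S H (Kc + 3) D1) vis hid n}

section

variable (hI : Inst2 (clsPar m ℓ μ B w0 J S H (Kc + 3) D1) m w0 Kc κr vis hid n S0 C)

include hI

theorem hE_of : ∃ p q, Ed (clsPar m ℓ μ B w0 J S H (Kc + 3) D1) p q := by
  obtain ⟨p, h1, h2, h3⟩ := hI.pt
  exact ⟨p, p, h1, h1, h2, h2, h3⟩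

theorem hle_of : HidLe (clsPar m ℓ μ B w0 J S H (Kc + 3) D1) vis hid :=
  fun i p q h => hI.hid_le i p q h.2.2.2.2

theorem wd_pos_of (j κ : ℕ) : 0 < wd m w0 j κ := H95.wd_pos hI.path.w0_pos j κ

/-- Weights in terms of masses. -/
theorem W_eq (mc : Mach) (ω : Rnd) (j i : ℕ) :
    (C.along mc ω hI.pt hI.hid_le).W j i = ((mass m S0 j i : ℕ) : ℝ) := by
  show ∑ r ∈ range ((2 ^ m) ^ j), C.w (i * (2 ^ m) ^ j + r) = _
  unfold mass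
  push_cast
  exact sum_congr rfl fun r _ => hI.w _

/-- The positions of the path in a top are in its box, in terms of the width of the units. -/
theorem box_pos {s j i r : ℕ} (hj : j + 2 ^ s ≤ n) (hi : i < (2 ^ m) ^ (n - (j + 2 ^ s)))
    (h1 : i * (2 ^ m) ^ (j + 2 ^ s) ≤ r) (h2 : r ≤ (i + 1) * (2 ^ m) ^ (j + 2 ^ s)) :
    loB m w0 s (j + 2 ^ s) (C.lab (j + 2 ^ s) i) ≤ C.pos r ∧
      C.pos r ≤ loB m w0 s (j + 2 ^ s) (C.lab (j + 2 ^ s) i) +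
        2 * ((2 ^ m) ^ 2 ^ s * wd m w0 (j + 2 ^ s - 2 ^ s) (cl (C.lab (j + 2 ^ s) i))) := by
  have h3 := hI.path.inBox_lab hj hi h1 h2
  rw [← hI.lab] at h3
  unfold InBox at h3
  rw [H869.Units.wd_add] at h3
  unfold loB
  rw [Nat.add_sub_cancel]
  refine ⟨h3.1, h3.2.trans (le_of_eq ?_)⟩
  ring

omit hI in
theorem row_le {m n s j i r : ℕ} (hj : j + 2 ^ s ≤ n) (hi : i < (2 ^ m) ^ (n - (j + 2 ^ s)))
    (h2 : r ≤ (i + 1) * (2 ^ m) ^ (j + 2 ^ s)) : r ≤ (2 ^ m) ^ n := by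
  refine h2.trans ?_
  calc _ ≤ (2 ^ m) ^ (n - (j + 2 ^ s)) * (2 ^ m) ^ (j + 2 ^ s) := Nat.mul_le_mul_right _ hi
    _ = (2 ^ m) ^ n := by rw [← pow_add, Nat.sub_add_cancel hj]

/-- The coarse node below a position of the path in the top. -/
theorem cnd_spec {g : ℕ → ℕ} {s j i r : ℕ} (hμ : 0 < μ) (hg : 0 < g s) (hd : μ * g s ∣ w0)
    (hj : j + 2 ^ s ≤ n) (hi : i < (2 ^ m) ^ (n - (j + 2 ^ s)))
    (h1 : i * (2 ^ m) ^ (j + 2 ^ s) ≤ r) (h2 : r ≤ (i + 1) * (2 ^ m) ^ (j + 2 ^ s)) :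
    cnd m w0 g s (j + 2 ^ s) (C.lab (j + 2 ^ s) i) (C.pos r) ≤ 2 * (2 ^ m) ^ 2 ^ s * g s ∧
    Nat.dist (posX ((2 ^ m) ^ 2 ^ s)
        (wd m w0 (j + 2 ^ s - 2 ^ s) (cl (C.lab (j + 2 ^ s) i))) (g s) μ B
        (loB m w0 s (j + 2 ^ s) (C.lab (j + 2 ^ s) i))
        (cnd m w0 g s (j + 2 ^ s) (C.lab (j + 2 ^ s) i) (C.pos r))) (C.pos r) ≤
      (2 ^ m) ^ 2 ^ s * (wd m w0 (j + 2 ^ s - 2 ^ s) (cl (C.lab (j + 2 ^ s) i)) / g s) := by
  have hw := wd_pos_of hI (j + 2 ^ s - 2 ^ s) (cl (C.lab (j + 2 ^ s) i))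
  have hdZ : μ * g s ∣ wd m w0 (j + 2 ^ s - 2 ^ s) (cl (C.lab (j + 2 ^ s) i)) := by
    unfold wd
    exact (hd.trans (Dvd.intro _ rfl)).trans (Dvd.intro_left _ rfl)
  have hl : μ ∣ loB m w0 s (j + 2 ^ s) (C.lab (j + 2 ^ s) i) := by
    unfold loB
    exact (((Dvd.intro _ rfl).trans hdZ).trans (Dvd.intro_left _ rfl)).trans
      (Dvd.intro_left _ rfl)
  have hB : C.pos r ≤ B := hI.pos_le r (row_le hj hi h2)
  obtain ⟨h3, h4⟩ := box_pos hI hj hi h1 h2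
  obtain ⟨h5, h6, h7⟩ := coarse (K := (2 ^ m) ^ 2 ^ s) hμ hg (by positivity) hw hdZ hl h3 h4 hB
  refine ⟨h5, ?_⟩
  unfold Nat.dist
  unfold cnd
  omega

section

variable {mc : Mach} {ω : Rnd} {g : ℕ → ℕ} {LB : ℕ → ℕ → List ℕ} (hLB : ∀ s a, LB s a ≠ [])
  (hdesc : ∀ s J' a, ∀ x ∈ LB s a,
    x ∈ (clsPar m ℓ μ B w0 J S H (Kc + 3) D1).desc J' (2 ^ s) a)
  (hμ : 0 < μ)

include hLB hμ

/-- The ends are nodes. -/
theorem cnd_lt {s j i r : ℕ} (hg : 0 < g s) (hd : μ * g s ∣ w0)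
    (hj : j + 2 ^ s ≤ n) (hi : i < (2 ^ m) ^ (n - (j + 2 ^ s)))
    (h1 : i * (2 ^ m) ^ (j + 2 ^ s) ≤ r) (h2 : r ≤ (i + 1) * (2 ^ m) ^ (j + 2 ^ s)) :
    cnd m w0 g s (j + 2 ^ s) (C.lab (j + 2 ^ s) i) (C.pos r) <
      pW ((2 ^ m) ^ 2 ^ s) (g s) (LB s (C.lab (j + 2 ^ s) i)) :=
  lt_of_le_of_lt (cnd_spec hI hμ hg hd hj hi h1 h2).1
    (lt_of_lt_of_le (Nat.lt_succ_self _) (H155.le_pW (hLB _ _)))

/-- (z1) -/
theorem WM_anti {s j i : ℕ} (hg : 0 < g s) (hd : μ * g s ∣ w0) (hj : j + 2 ^ s ≤ n)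
    (hi : i < (2 ^ m) ^ (n - (j + 2 ^ s))) {b b' : ℤ} (h : b ≤ b') :
    WM C mc ω g LB s (j + 2 ^ s) i b' ≤ WM C mc ω g LB s (j + 2 ^ s) i b :=
  WT_anti (hE_of hI) (hle_of hI)
    (cnd_lt hI hLB hμ hg hd hj hi le_rfl (Nat.mul_le_mul_right _ (Nat.le_succ _)))
    (cnd_lt hI hLB hμ hg hd hj hi (Nat.mul_le_mul_right _ (Nat.le_succ _)) le_rfl) h

omit hI hLB hμ in
/-- Every index has its round. -/
theorem WM_round {s j : ℕ} (hH : j < H) (i : ℕ) (b : ℤ) :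
    WM C mc ω g LB s (j + 2 ^ s) i b =
      WM C mc ω g LB s (j + 2 ^ s) i (((b + H).toNat : ℤ) - H) :=
  WT_round (P := clsPar m ℓ μ B w0 J S H (Kc + 3) D1) (Nat.le_add_left _ _)
    (Nat.add_lt_add_right hH _) b

include hdesc

/-- (z2) -/
theorem C_le_WM {s j i : ℕ} (hg : 0 < g s) (hd : μ * g s ∣ w0) (hj : j + 2 ^ s ≤ n)
    (hi : i < (2 ^ m) ^ (n - (j + 2 ^ s))) (b : ℤ) :
    (C.along mc ω hI.pt hI.hid_le).C (j + 2 ^ s) i b ≤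
      (WM C mc ω g LB s (j + 2 ^ s) i b : ℝ) +
      4 * ((2 ^ m : ℝ) ^ 2 ^ s *
        ((wd m w0 (j + 2 ^ s - 2 ^ s) (cl (C.lab (j + 2 ^ s) i)) / g s : ℕ) : ℝ)) := by
  have hM : 0 < (clsPar m ℓ μ B w0 J S H (Kc + 3) D1).M := by show 0 < 2 ^ m; positivity
  have hii : i * (2 ^ m) ^ (j + 2 ^ s) ≤ (i + 1) * (2 ^ m) ^ (j + 2 ^ s) :=
    Nat.mul_le_mul_right _ (Nat.le_succ i)
  have hA := cnd_spec hI hμ hg hd hj hi (r := i * (2 ^ m) ^ (j + 2 ^ s)) le_rfl hii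
  have hB := cnd_spec hI hμ hg hd hj hi (r := (i + 1) * (2 ^ m) ^ (j + 2 ^ s)) hii le_rfl
  have h1 := cR_le_WT (mc := mc) (ω := ω) (vis := vis) (hid := hid)
    (zp := posX ((2 ^ m) ^ 2 ^ s) (wd m w0 (j + 2 ^ s - 2 ^ s) (cl (C.lab (j + 2 ^ s) i)))
      (g s) μ B (loB m w0 s (j + 2 ^ s) (C.lab (j + 2 ^ s) i)))
    (lb := labX ((2 ^ m) ^ 2 ^ s) (g s) (LB s (C.lab (j + 2 ^ s) i)))
    (a := C.lab (j + 2 ^ s) i) (i := i) hM penOK_cls (hE_of hI) (hle_of hI)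
    (Nat.le_add_left (2 ^ s) j)
    (cnd_lt hI hLB hμ hg hd hj hi (r := i * (2 ^ m) ^ (j + 2 ^ s)) le_rfl hii)
    (cnd_lt hI hLB hμ hg hd hj hi (r := (i + 1) * (2 ^ m) ^ (j + 2 ^ s)) hii le_rfl)
    (fun x _ => hdesc s _ _ _ (H155.labX_mem (hLB _ _) _ _ _)) b
    (C.pos (i * (2 ^ m) ^ (j + 2 ^ s))) (C.pos ((i + 1) * (2 ^ m) ^ (j + 2 ^ s)))
  have h2 := hA.2
  have h3 := hB.2
  rw [Nat.dist_comm] at h2
  have h4 : (clsPar m ℓ μ B w0 J S H (Kc + 3) D1).sh = 2 := rfl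
  rw [h4] at h1
  have h5 : cR (clsPar m ℓ μ B w0 J S H (Kc + 3) D1) mc ω vis hid (j + 2 ^ s) i
      (C.lab (j + 2 ^ s) i) b (C.pos (i * (2 ^ m) ^ (j + 2 ^ s)))
      (C.pos ((i + 1) * (2 ^ m) ^ (j + 2 ^ s))) ≤
      WM C mc ω g LB s (j + 2 ^ s) i b + 4 * ((2 ^ m) ^ 2 ^ s *
        (wd m w0 (j + 2 ^ s - 2 ^ s) (cl (C.lab (j + 2 ^ s) i)) / g s)) := by
    refine h1.trans ?_
    change WM C mc ω g LB s (j + 2 ^ s) i b + _ + _ ≤ _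
    omega
  have h6 : ((cR (clsPar m ℓ μ B w0 J S H (Kc + 3) D1) mc ω vis hid (j + 2 ^ s) i
      (C.lab (j + 2 ^ s) i) b (C.pos (i * (2 ^ m) ^ (j + 2 ^ s)))
      (C.pos ((i + 1) * (2 ^ m) ^ (j + 2 ^ s))) : ℕ) : ℝ) ≤ _ := Nat.cast_le.2 h5
  push_cast at h6
  exact h6

end

/-- `K Z ≤ 8 W` below the root. -/
theorem KZ_le (mc : Mach) (ω : Rnd) {s j i : ℕ} (hj : j + 2 ^ s < n) :
    (2 ^ m : ℝ) ^ 2 ^ s * (wd m w0 (j + 2 ^ s - 2 ^ s) (cl (C.lab (j + 2 ^ s) i)) : ℝ) ≤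
      8 * (C.along mc ω hI.pt hI.hid_le).W (j + 2 ^ s) i := by
  have h1 := H869.Units.le_top_mass hI.path (j := j) (e := 2 ^ s) (i := i) hj
  rw [← hI.lab] at h1
  rw [W_eq hI, Nat.add_sub_cancel]
  exact_mod_cast h1

/-- The rounding of the ends, in terms of the weight. -/
theorem coarse_le (mc : Mach) (ω : Rnd) {g : ℕ → ℕ} {s j i : ℕ} (hg : 0 < g s)
    (hj : j + 2 ^ s < n) :
    4 * ((2 ^ m : ℝ) ^ 2 ^ s *
        ((wd m w0 (j + 2 ^ s - 2 ^ s) (cl (C.lab (j + 2 ^ s) i)) / g s : ℕ) : ℝ)) ≤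
      32 / g s * (C.along mc ω hI.pt hI.hid_le).W (j + 2 ^ s) i := by
  have h1 := KZ_le hI mc ω (i := i) hj
  have hg' : (0 : ℝ) < g s := by exact_mod_cast hg
  have h2 : ((wd m w0 (j + 2 ^ s - 2 ^ s) (cl (C.lab (j + 2 ^ s) i)) / g s : ℕ) : ℝ) ≤
      (wd m w0 (j + 2 ^ s - 2 ^ s) (cl (C.lab (j + 2 ^ s) i)) : ℝ) / g s := Nat.cast_div_le
  have h3 := mul_le_mul_of_nonneg_left h2 (by positivity : (0 : ℝ) ≤ (2 ^ m : ℝ) ^ 2 ^ s)
  rw [← mul_div_assoc] at h3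
  have h4 := div_le_div_of_nonneg_right h1 hg'.le
  have h5 : 32 / g s * (C.along mc ω hI.pt hI.hid_le).W (j + 2 ^ s) i =
      4 * (8 * (C.along mc ω hI.pt hI.hid_le).W (j + 2 ^ s) i / g s) := by ring
  rw [h5]
  linarith

/-- **(H3a) of milestone 2**: the values of the machines, with the root exception. `path` =
the node path of the comparison path (row by row, for every round). -/
theorem zfam2 {mc : Mach} {ω : Rnd} {g : ℕ → ℕ} {LB : ℕ → ℕ → List ℕ} {smax : ℕ}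
    {tau : ℕ → ℝ}
    (hLB : ∀ s a, LB s a ≠ [])
    (hdesc : ∀ s J' a, ∀ x ∈ LB s a,
      x ∈ (clsPar m ℓ μ B w0 J S H (Kc + 3) D1).desc J' (2 ^ s) a)
    (hμ : 0 < μ) (hH : n ≤ H) (hg : ∀ s, 1 ≤ s → s ≤ smax → 0 < g s)
    (hd : ∀ s, 1 ≤ s → s ≤ smax → μ * g s ∣ w0)
    (ht : ∀ s, 0 ≤ tau s) (hgt : ∀ s, 1 ≤ s → s ≤ smax → 32 / g s ≤ tau s)
    (path : ∀ s j i, 1 ≤ s → s ≤ smax → j + 2 ^ s < n → i < (2 ^ m) ^ (n - (j + 2 ^ s)) →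
      ∃ f : ℕ → ℕ,
        f 0 = cnd m w0 g s (j + 2 ^ s) (C.lab (j + 2 ^ s) i)
          (C.pos (i * (2 ^ m) ^ (j + 2 ^ s))) ∧
        f ((2 ^ m) ^ 2 ^ s + 2) = cnd m w0 g s (j + 2 ^ s) (C.lab (j + 2 ^ s) i)
          (C.pos ((i + 1) * (2 ^ m) ^ (j + 2 ^ s))) ∧
        (∀ r ≤ (2 ^ m) ^ 2 ^ s + 2,
          f r < pW ((2 ^ m) ^ 2 ^ s) (g s) (LB s (C.lab (j + 2 ^ s) i))) ∧
        ∀ κ : ℕ, (∑ r ∈ range ((2 ^ m) ^ 2 ^ s + 2),
            (nodeT C mc ω g LB s (j + 2 ^ s) i ((κ : ℤ) - H) r (f r) (f (r + 1)) : ℝ)) ≤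
          ∑ u ∈ range ((2 ^ m) ^ 2 ^ s), (C.along mc ω hI.pt hI.hid_le).C j
              (i * (2 ^ m) ^ 2 ^ s + u) ((κ : ℤ) - H -
                (C.along mc ω hI.pt hI.hid_le).US j (2 ^ s) (i * (2 ^ m) ^ 2 ^ s + u)) +
            tau s * (C.along mc ω hI.pt hI.hid_le).W (j + 2 ^ s) i) :
    H381.ZFam (C.along mc ω hI.pt hI.hid_le) smax
      (WX (C.along mc ω hI.pt hI.hid_le) fun s J' i b => (WM C mc ω g LB s J' i b : ℝ))
      tau 0 := by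
  have hM : 0 < (clsPar m ℓ μ B w0 J S H (Kc + 3) D1).M := by show 0 < 2 ^ m; positivity
  refine zfam_of hM ht le_rfl ?_ ?_ ?_ ?_
  · intro s j i hs hs' hj hi b b' hb
    exact Nat.cast_le.2 (WM_anti hI hLB hμ (hg s hs hs') (hd s hs hs') hj.le hi hb)
  · intro s j i b hs hs' hj hi
    have h1 := C_le_WM hI (mc := mc) (ω := ω) hLB hdesc hμ (hg s hs hs') (hd s hs hs') hj.le hi b
    have h2 := coarse_le hI mc ω (g := g) (i := i) (hg s hs hs') hj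
    have h3 := mul_le_mul_of_nonneg_right (hgt s hs hs')
      ((C.along mc ω hI.pt hI.hid_le).W_pos hM (j + 2 ^ s) i).le
    linarith
  · intro s j i b hs hs' hj hi
    obtain ⟨f, f0, fK, fp, hf⟩ := path s j i hs hs' hj hi
    have hA := cnd_lt hI hLB hμ (g := g) (hg s hs hs') (hd s hs hs') hj.le hi le_rfl
      (Nat.mul_le_mul_right _ (Nat.le_succ _))
    have hB := cnd_lt hI hLB hμ (g := g) (hg s hs hs') (hd s hs hs') hj.le hi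
      (Nat.mul_le_mul_right _ (Nat.le_succ _)) le_rfl
    have h1 : WM C mc ω g LB s (j + 2 ^ s) i (((b + H).toNat : ℤ) - H) ≤
        ∑ r ∈ range ((2 ^ m) ^ 2 ^ s + 2), nodeT C mc ω g LB s (j + 2 ^ s) i
          (((b + H).toNat : ℤ) - H) r (f r) (f (r + 1)) :=
      (H220.wd_spec (nodeT C mc ω g LB s (j + 2 ^ s) i (((b + H).toNat : ℤ) - H))
        (Nat.succ_pos _) hA hB).2 f f0 fK fp
    have h2 : (WM C mc ω g LB s (j + 2 ^ s) i (((b + H).toNat : ℤ) - H) : ℝ) ≤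
        ∑ r ∈ range ((2 ^ m) ^ 2 ^ s + 2), (nodeT C mc ω g LB s (j + 2 ^ s) i
          (((b + H).toNat : ℤ) - H) r (f r) (f (r + 1)) : ℝ) := by exact_mod_cast h1
    rw [WM_round (lt_of_lt_of_le (lt_of_le_of_lt (Nat.le_add_right _ _) hj) hH) i b]
    refine (h2.trans (hf _)).trans (add_le_add_left (sum_le_sum fun u hu => ?_) _)
    have hb : b ≤ ((b + H).toNat : ℤ) - H := by
      have := Int.self_le_toNat (b + H)
      linarith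
    exact (C.along mc ω hI.pt hI.hid_le).anti j _ ((Nat.le_add_right _ _).trans hj.le)
      (Along.unit_lt (M := (clsPar m ℓ μ B w0 J S H (Kc + 3) D1).M) hj.le hi (mem_range.1 hu))
      (sub_le_sub_right hb _)
  · intro j i b hj hi
    rw [zero_mul, sub_zero]
    exact H95.DE_le_cR C hI.pt hI.hid_le hI.lower hj hi _ b

end

/-! ### The machines of the query theorem -/

section

open H659 (toRnd)

variable {mc : Mach} {N : ℤ} {Cn q : ℕ} {g : ℕ → ℕ} {LB : ℕ → ℕ → List ℕ} {tau : ℕ → ℝ}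
  [Nonempty (Fin ((q2 m ℓ μ B w0 J S H Kc D1 mc n N Cn q).P.M ^
    (q2 m ℓ μ B w0 J S H Kc D1 mc n N Cn q).n))]

/-- **The machines** `Acc.Mach` of the seed `w`, from the two-sided bound. -/
noncomputable def R2 (K : Cut2 (q2 m ℓ μ B w0 J S H Kc D1 mc n N Cn q) C)
    (w : (q2 m ℓ μ B w0 J S H Kc D1 mc n N Cn q).Seed)
    (Z : H381.ZFam (K.al w) K.smax
      (WX (K.al w) fun s J' i b => (WM C mc (toRnd J w) g LB s J' i b : ℝ)) tau 0) :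
    Acc.Mach (K.sys w) :=
  Z.mach K.hM K.lo K.NB K.D0 (fun _ => K.qb) K.hD0 K.hn (K.sft_le w) K.fin_le

omit [Nonempty (Fin ((q2 m ℓ μ B w0 J S H Kc D1 mc n N Cn q).P.M ^
    (q2 m ℓ μ B w0 J S H Kc D1 mc n N Cn q).n))] in
/-- (H3a) for the seed `w`. -/
theorem zfamK (hI : Inst2 (clsPar m ℓ μ B w0 J S H (Kc + 3) D1) m w0 Kc κr vis hid n S0 C)
    (K : Cut2 (q2 m ℓ μ B w0 J S H Kc D1 mc n N Cn q) C)
    (w : (q2 m ℓ μ B w0 J S H Kc D1 mc n N Cn q).Seed)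
    (hLB : ∀ s a, LB s a ≠ [])
    (hdesc : ∀ s J' a, ∀ x ∈ LB s a,
      x ∈ (clsPar m ℓ μ B w0 J S H (Kc + 3) D1).desc J' (2 ^ s) a)
    (hμ : 0 < μ) (hH : n ≤ H) (hg : ∀ s, 1 ≤ s → s ≤ K.smax → 0 < g s)
    (hd : ∀ s, 1 ≤ s → s ≤ K.smax → μ * g s ∣ w0)
    (ht : ∀ s, 0 ≤ tau s) (hgt : ∀ s, 1 ≤ s → s ≤ K.smax → 32 / g s ≤ tau s)
    (path : ∀ s j i, 1 ≤ s → s ≤ K.smax → j + 2 ^ s < n → i < (2 ^ m) ^ (n - (j + 2 ^ s)) →
      ∃ f : ℕ → ℕ,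
        f 0 = cnd m w0 g s (j + 2 ^ s) (C.lab (j + 2 ^ s) i)
          (C.pos (i * (2 ^ m) ^ (j + 2 ^ s))) ∧
        f ((2 ^ m) ^ 2 ^ s + 2) = cnd m w0 g s (j + 2 ^ s) (C.lab (j + 2 ^ s) i)
          (C.pos ((i + 1) * (2 ^ m) ^ (j + 2 ^ s))) ∧
        (∀ r ≤ (2 ^ m) ^ 2 ^ s + 2,
          f r < pW ((2 ^ m) ^ 2 ^ s) (g s) (LB s (C.lab (j + 2 ^ s) i))) ∧
        ∀ κ : ℕ, (∑ r ∈ range ((2 ^ m) ^ 2 ^ s + 2),
            (nodeT C mc (toRnd J w) g LB s (j + 2 ^ s) i ((κ : ℤ) - H) r (f r) (f (r + 1)) : ℝ)) ≤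
          ∑ u ∈ range ((2 ^ m) ^ 2 ^ s), (K.al w).C j
              (i * (2 ^ m) ^ 2 ^ s + u) ((κ : ℤ) - H -
                (K.al w).US j (2 ^ s) (i * (2 ^ m) ^ 2 ^ s + u)) +
            tau s * (K.al w).W (j + 2 ^ s) i) :
    H381.ZFam (K.al w) K.smax
      (WX (K.al w) fun s J' i b => (WM C mc (toRnd J w) g LB s J' i b : ℝ)) tau 0 :=
  zfam2 hI hLB hdesc hμ hH hg hd ht hgt path

variable (K : Cut2 (q2 m ℓ μ B w0 J S H Kc D1 mc n N Cn q) C)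
  (w : (q2 m ℓ μ B w0 J S H Kc D1 mc n N Cn q).Seed)
  (Z : H381.ZFam (K.al w) K.smax
    (WX (K.al w) fun s J' i b => (WM C mc (toRnd J w) g LB s J' i b : ℝ)) tau 0)

theorem R2_tau (s : ℕ) : (R2 K w Z).tau s = tau s := by
  show tau s + 0 = tau s
  rw [add_zero]

/-- **Below the root, the drop of the machine value** in a block is the drop of the value of the
cheapest node path between the own indices of its ends. -/
theorem R2_m {s a : ℕ} (hs : 1 ≤ s) (hs' : s ≤ K.smax) (ha : a * 2 ^ s + 2 ^ s < n) (o : ℕ)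
    (x : Fin ((2 ^ m) ^ n)) (k : ℕ) :
    (R2 K w Z).m o s a x k =
      ((WM C mc (toRnd J w) g LB s (a * 2 ^ s + 2 ^ s)
          ((x : ℕ) / (2 ^ m) ^ (a * 2 ^ s + 2 ^ s))
          ((K.al w).own K.lo s a x ((K.sys w).b0 o s k)) : ℝ) -
        WM C mc (toRnd J w) g LB s (a * 2 ^ s + 2 ^ s)
          ((x : ℕ) / (2 ^ m) ^ (a * 2 ^ s + 2 ^ s))
          ((K.al w).own K.lo s a x ((K.sys w).b1 o s k))) /
        (K.al w).W (a * 2 ^ s + 2 ^ s) ((x : ℕ) / (2 ^ m) ^ (a * 2 ^ s + 2 ^ s)) := by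
  have h1 := Z.mach_m K.hM K.lo K.NB K.D0 (fun _ => K.qb) K.hD0 K.hn (K.sft_le w) K.fin_le hs'
    ha.le o x k
  refine h1.trans ?_
  rw [WX_use hs ha, WX_use hs ha]
  rfl

/-- The same in the rounds of the machines. -/
theorem R2_m_nat (hH : n ≤ H) {s a : ℕ} (hs : 1 ≤ s) (hs' : s ≤ K.smax)
    (ha : a * 2 ^ s + 2 ^ s < n) (o : ℕ) (x : Fin ((2 ^ m) ^ n)) (k : ℕ) :
    (R2 K w Z).m o s a x k *
        (K.al w).W (a * 2 ^ s + 2 ^ s) ((x : ℕ) / (2 ^ m) ^ (a * 2 ^ s + 2 ^ s)) =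
      (WM C mc (toRnd J w) g LB s (a * 2 ^ s + 2 ^ s)
          ((x : ℕ) / (2 ^ m) ^ (a * 2 ^ s + 2 ^ s))
          ((((K.al w).own K.lo s a x ((K.sys w).b0 o s k) + H).toNat : ℤ) - H) : ℝ) -
        WM C mc (toRnd J w) g LB s (a * 2 ^ s + 2 ^ s)
          ((x : ℕ) / (2 ^ m) ^ (a * 2 ^ s + 2 ^ s))
          ((((K.al w).own K.lo s a x ((K.sys w).b1 o s k) + H).toNat : ℤ) - H) := by
  have hlt : a * 2 ^ s < H := lt_of_lt_of_le (lt_of_le_of_lt (Nat.le_add_right _ _) ha) hH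
  rw [R2_m K w Z hs hs' ha, div_mul_cancel₀ _ ((K.al w).W_pos K.hM _ _).ne',
    ← WM_round hlt, ← WM_round hlt]

end

end

end Vale.Agent.P315.H244
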