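import Vale.Agent.P315.H381.MachA
import Vale.Agent.P315.H155.MachW

/-!
P315, milestone 2, row M2-H3 (helper244): the value of the cheapest node path seen by the machines
of a top, when the label of a unit is the label of the target node; antitone, constant for small
indices, at least the certified cost of the top.
-/

set_option autoImplicit false

open Finset

namespace Vale.Agent.P315.H244

open C H140 H808

section wt

variable (P : Par) (mc : Mach) (ω : Rnd) (vis hid : Leaf)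

/-- Costs of the rows of the machine graph between the nodes of a net, at the own index `b` of the
top: the rows `1, …, K` are the units (label of the target node), the first and the last row are
shifts. -/
noncomputable def UT (j i a s : ℕ) (lb zp : ℕ → ℕ) (b : ℤ) (m g g' : ℕ) : ℕ :=
  if 1 ≤ m ∧ m ≤ P.M ^ 2 ^ s then
    cR P mc ω vis hid (j - 2 ^ s) (i * P.M ^ 2 ^ s + (m - 1)) (lb g')
      (b - Xi P ω j (2 ^ s) (m - 1) - P.pen j (2 ^ s) a (lb g')) (zp g) (zp g')
  else P.sh * Nat.dist (zp g) (zp g')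

/-- Value of the cheapest node path. -/
noncomputable def WT (j i a s p A0 B0 : ℕ) (lb zp : ℕ → ℕ) (b : ℤ) : ℕ :=
  H220.WD (P.M ^ 2 ^ s + 2) p A0 B0 (UT P mc ω vis hid j i a s lb zp b)

variable {P mc ω vis hid}

/-- The history of the machines. -/
theorem hist_UT (j i a s κ : ℕ) (lb zp : ℕ → ℕ) :
    (fun m g g' => if 1 ≤ m ∧ m ≤ P.M ^ 2 ^ s then
        hist P ω vis hid (rd P mc ω vis hid) j i a s κ (m - 1) (lb g') (zp g) (zp g')
      else P.sh * Nat.dist (zp g) (zp g')) =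
      UT P mc ω vis hid j i a s lb zp ((κ : ℤ) - P.H) := rfl

theorem UT_anti (hE : ∃ p q, Ed P p q) (hle : HidLe P vis hid) (j i a s : ℕ)
    (lb zp : ℕ → ℕ) {b b' : ℤ} (h : b ≤ b') (m g g' : ℕ) :
    UT P mc ω vis hid j i a s lb zp b' m g g' ≤ UT P mc ω vis hid j i a s lb zp b m g g' := by
  unfold UT
  split_ifs
  · exact cR_anti hE hle (by omega) _ _ _ _ _
  · exact le_rfl

/-- Below `-j` the unit costs are constant. -/
theorem UT_neg {j s : ℕ} (hs : 2 ^ s ≤ j) (i a : ℕ) (lb zp : ℕ → ℕ) {b b' : ℤ}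
    (h : b < -(j : ℤ) + 2 ^ s) (h' : b' < -(j : ℤ) + 2 ^ s) (m g g' : ℕ) :
    UT P mc ω vis hid j i a s lb zp b m g g' = UT P mc ω vis hid j i a s lb zp b' m g g' := by
  have h6 : ((j - 2 ^ s : ℕ) : ℤ) = (j : ℤ) - 2 ^ s := by
    rw [Nat.cast_sub hs]; push_cast; ring
  have h7 : (0 : ℤ) ≤ Xi P ω j (2 ^ s) (m - 1) := by positivity
  have h8 : (0 : ℤ) ≤ P.pen j (2 ^ s) a (lb g') := by positivity
  unfold UT cR
  rw [rd_empty (by rw [h6]; linarith), rd_empty (by rw [h6]; linarith)]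

section

variable {j i a s p A0 B0 : ℕ} {lb zp : ℕ → ℕ}

theorem WT_anti (hE : ∃ p q, Ed P p q) (hle : HidLe P vis hid) (hA : A0 < p)
    (hB : B0 < p) {b b' : ℤ} (h : b ≤ b') :
    WT P mc ω vis hid j i a s p A0 B0 lb zp b' ≤ WT P mc ω vis hid j i a s p A0 B0 lb zp b :=
  H220.wd_mono (Nat.succ_pos _) hA hB fun m _ g _ g' _ => UT_anti hE hle j i a s lb zp h m g g'

theorem WT_neg (hs : 2 ^ s ≤ j) {b b' : ℤ}
    (h : b < -(j : ℤ) + 2 ^ s) (h' : b' < -(j : ℤ) + 2 ^ s) :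
    WT P mc ω vis hid j i a s p A0 B0 lb zp b = WT P mc ω vis hid j i a s p A0 B0 lb zp b' :=
  H220.wd_congr fun m _ g _ g' _ => UT_neg hs i a lb zp h h' m g g'

/-- If the machines start early enough, every index has its round. -/
theorem WT_round (hs : 2 ^ s ≤ j) (hH : j < P.H + 2 ^ s) (b : ℤ) :
    WT P mc ω vis hid j i a s p A0 B0 lb zp b =
      WT P mc ω vis hid j i a s p A0 B0 lb zp (((b + P.H).toNat : ℤ) - P.H) := by
  rcases le_total (-(P.H : ℤ)) b with h | h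
  · rw [Int.toNat_of_nonneg (by linarith)]
    congr 1
    ring
  · rw [Int.toNat_of_nonpos (by linarith)]
    have h1 : (j : ℤ) < P.H + 2 ^ s := by exact_mod_cast hH
    exact WT_neg hs (by linarith) (by push_cast; linarith)

/-- The certified cost of the top is at most the value of the cheapest node path, up to the
shifts at the two ends. -/
theorem cR_le_WT (hM : 0 < P.M) (hpen : PenOK P) (hE : ∃ p q, Ed P p q)
    (hle : HidLe P vis hid) (hs : 2 ^ s ≤ j) (hA : A0 < p) (hB : B0 < p)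
    (hlb : ∀ g < p, lb g ∈ P.desc j (2 ^ s) a) (b : ℤ) (u v : ℕ) :
    cR P mc ω vis hid j i a b u v ≤ WT P mc ω vis hid j i a s p A0 B0 lb zp b +
      P.sh * Nat.dist u (zp A0) + P.sh * Nat.dist (zp B0) v := by
  obtain ⟨⟨g, g0, gK, hg, h1⟩, -⟩ := H220.wd_spec (p := p) (a := A0) (b := B0)
    (UT P mc ω vis hid j i a s lb zp b) (Nat.succ_pos (P.M ^ 2 ^ s + 1)) hA hB
  have h2 := cR_H1_pow (mc := mc) (ω := ω) (vis := vis) (hid := hid) hM hpen hE hle
    (i := i) (a := a) hs b (fun m => lb (g (m + 2))) (fun m => zp (g (m + 1)))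
    (fun m hm => hlb _ (hg (m + 2) (by omega)))
  have h3 : WT P mc ω vis hid j i a s p A0 B0 lb zp b =
      P.sh * Nat.dist (zp A0) (zp (g 1)) +
      ∑ m ∈ range (P.M ^ 2 ^ s), cR P mc ω vis hid (j - 2 ^ s) (i * P.M ^ 2 ^ s + m)
        (lb (g (m + 2))) (b - Xi P ω j (2 ^ s) m - P.pen j (2 ^ s) a (lb (g (m + 2))))
        (zp (g (m + 1))) (zp (g (m + 1 + 1))) +
      P.sh * Nat.dist (zp (g (P.M ^ 2 ^ s + 1))) (zp B0) := by
    unfold WT
    rw [h1, H381.sum_rows]
    congr 1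
    · congr 1
      · unfold UT
        rw [if_neg (by omega), g0]
      · refine sum_congr rfl fun m hm => ?_
        have hm := mem_range.1 hm
        unfold UT
        rw [if_pos ⟨by omega, by omega⟩]
        rfl
    · unfold UT
      rw [if_neg (by omega)]
      have e1 : P.M ^ 2 ^ s + 1 + 1 = P.M ^ 2 ^ s + 2 := rfl
      rw [e1, gK]
  have h4 := cR_lip (mc := mc) (ω := ω) (vis := vis) (hid := hid) hE j i a b u (zp (g 1)) v
    (zp (g (P.M ^ 2 ^ s + 1)))
  have h5 := Nat.mul_le_mul_left P.sh (Nat.dist.triangle_inequality u (zp A0) (zp (g 1)))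
  have h6 := Nat.mul_le_mul_left P.sh
    (Nat.dist.triangle_inequality (zp (g (P.M ^ 2 ^ s + 1))) (zp B0) v)
  rw [Nat.mul_add] at h5 h6
  have h2' : cR P mc ω vis hid j i a b (zp (g 1)) (zp (g (P.M ^ 2 ^ s + 1))) ≤ _ := h2
  omega

/-- The value is at most the cost of any node path. -/
theorem WT_le_nodes (hA : A0 < p) (hB : B0 < p) (b : ℤ) {f : ℕ → ℕ} (f0 : f 0 = A0)
    (fK : f (P.M ^ 2 ^ s + 2) = B0) (hf : ∀ r ≤ P.M ^ 2 ^ s + 2, f r < p) :
    WT P mc ω vis hid j i a s p A0 B0 lb zp b ≤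
      ∑ r ∈ range (P.M ^ 2 ^ s + 2), UT P mc ω vis hid j i a s lb zp b r (f r) (f (r + 1)) :=
  (H220.wd_spec (p := p) (a := A0) (b := B0) (UT P mc ω vis hid j i a s lb zp b)
    (Nat.succ_pos _) hA hB).2 f f0 fK hf

end

end wt

/-! ### Root and scale zero -/

section exc

variable {M n : ℕ} (A : Along M n)

/-- The values of the machines below the root, the sum of the certified costs of the units for the
root and for the scale `0`. -/
noncomputable def WX (WU : ℕ → ℕ → ℕ → ℤ → ℝ) (s J i : ℕ) (b : ℤ) : ℝ :=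
  if 1 ≤ s ∧ J < n then WU s J i b
  else ∑ u ∈ range (M ^ 2 ^ s), A.C (J - 2 ^ s) (i * M ^ 2 ^ s + u)
    (b - A.US (J - 2 ^ s) (2 ^ s) (i * M ^ 2 ^ s + u))

variable {A}

theorem WX_use {WU : ℕ → ℕ → ℕ → ℤ → ℝ} {s J : ℕ} (hs : 1 ≤ s) (hJ : J < n) (i : ℕ) (b : ℤ) :
    WX A WU s J i b = WU s J i b := by
  unfold WX
  rw [if_pos ⟨hs, hJ⟩]

/-- The two-sided bound with the root exception. -/
theorem zfam_of {smax : ℕ} {WU : ℕ → ℕ → ℕ → ℤ → ℝ} {tau : ℕ → ℝ} {eps : ℝ} (hM : 0 < M)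
    (ht : ∀ s, 0 ≤ tau s) (he : 0 ≤ eps)
    (anti : ∀ s j i, 1 ≤ s → s ≤ smax → j + 2 ^ s < n → i < M ^ (n - (j + 2 ^ s)) →
      Antitone (WU s (j + 2 ^ s) i))
    (le_W : ∀ s j i b, 1 ≤ s → s ≤ smax → j + 2 ^ s < n → i < M ^ (n - (j + 2 ^ s)) →
      A.C (j + 2 ^ s) i b ≤ WU s (j + 2 ^ s) i b + tau s * A.W (j + 2 ^ s) i)
    (W_le : ∀ s j i b, 1 ≤ s → s ≤ smax → j + 2 ^ s < n → i < M ^ (n - (j + 2 ^ s)) →
      WU s (j + 2 ^ s) i b ≤ ∑ u ∈ range (M ^ 2 ^ s), A.C j (i * M ^ 2 ^ s + u)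
        (b - A.US j (2 ^ s) (i * M ^ 2 ^ s + u)) + tau s * A.W (j + 2 ^ s) i)
    (low : ∀ j i b, j ≤ n → i < M ^ (n - j) → A.DE j i - eps * A.W j i ≤ A.C j i b) :
    H381.ZFam A smax (WX A WU) tau eps where
  tau_nonneg := ht
  eps_nonneg := he
  anti := by
    intro s j i hs hj hi b b' hb
    unfold WX
    split_ifs with h
    · exact anti s j i h.1 hs h.2 hi hb
    · rw [Nat.add_sub_cancel]
      refine sum_le_sum fun u hu => ?_
      exact A.anti j _ ((Nat.le_add_right _ _).trans hj)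
        (Along.unit_lt hj hi (mem_range.1 hu)) (by linarith)
  le_W := by
    intro s j i b hs hj hi
    unfold WX
    split_ifs with h
    · exact le_W s j i b h.1 hs h.2 hi
    · rw [Nat.add_sub_cancel]
      have h1 := A.H1_units j (2 ^ s) i b hj hi
      have h2 := mul_nonneg (ht s) (A.W_pos hM (j + 2 ^ s) i).le
      linarith
  W_le := by
    intro s j i b hs hj hi
    unfold WX
    split_ifs with h
    · exact W_le s j i b h.1 hs h.2 hi
    · rw [Nat.add_sub_cancel]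
      have h2 := mul_nonneg (ht s) (A.W_pos hM (j + 2 ^ s) i).le
      linarith
  low := low

end exc

end Vale.Agent.P315.H244
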