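import Vale.Agent.P315.H244.MachA2
import Vale.Agent.P315.H638.PathW

/-!
P315, milestone 2, row M2-H3, (H3a) (helper244): the family of machine values without the
hypothesis on the node path (route of `H638/PathW.lean`, labels `H763.labL`), and the facts about
its natural values which the comparison of the classes uses.
-/

set_option autoImplicit false

open Finset

namespace Vale.Agent.P315.H244

open C H140 H808 H846
open H155 (nodeW pW posX labX)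
open H638 (cnW FW zT ZT loT RouteW)
open H763 (labL)
open H659 (toRnd)
open H95 (clsPar wd cl bx ac)

section

variable {m ℓ μ B w0 J S H Kc D1 n κr : ℕ} {vis hid : Leaf} {S0 : ℕ → ℕ}
  {C : Chain (clsPar m ℓ μ B w0 J S H (Kc + 3) D1) vis hid n}

/-- Natural value of the machines in round `κ`, in terms of the level `j` of the units. -/
noncomputable def VN (C : Chain (clsPar m ℓ μ B w0 J S H (Kc + 3) D1) vis hid n) (mc : Mach)
    (ω : Rnd) (g : ℕ) (s j i κ : ℕ) : ℕ :=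
  H220.WD ((2 ^ m) ^ 2 ^ s + 2)
    (pW ((2 ^ m) ^ 2 ^ s) g (labL m (Kc + 3) s (C.lab (j + 2 ^ s) i)))
    (cnW ((2 ^ m) ^ 2 ^ s) (loT m w0 s j (C.lab (j + 2 ^ s) i))
      (ZT m w0 j (C.lab (j + 2 ^ s) i) / g) (zT C s j i 0) * (2 ^ m) ^ 2 ^ s)
    (cnW ((2 ^ m) ^ 2 ^ s) (loT m w0 s j (C.lab (j + 2 ^ s) i))
      (ZT m w0 j (C.lab (j + 2 ^ s) i) / g) (zT C s j i ((2 ^ m) ^ 2 ^ s)) * (2 ^ m) ^ 2 ^ s)
    (nodeW ((2 ^ m) ^ 2 ^ s) (ZT m w0 j (C.lab (j + 2 ^ s) i)) g μ B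
      (loT m w0 s j (C.lab (j + 2 ^ s) i)) (labL m (Kc + 3) s (C.lab (j + 2 ^ s) i))
      (hist (clsPar m ℓ μ B w0 J S H (Kc + 3) D1) ω vis hid
        (rd (clsPar m ℓ μ B w0 J S H (Kc + 3) D1) mc ω vis hid) (j + 2 ^ s) i
        (C.lab (j + 2 ^ s) i) s) κ)

variable (mc : Mach) (ω : Rnd)

theorem zT_zero (s j i : ℕ) : zT C s j i 0 = C.pos (i * (2 ^ m) ^ (j + 2 ^ s)) := by
  unfold zT
  congr 1
  rw [add_zero, add_comm j, pow_add, mul_assoc]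

theorem zT_last (s j i : ℕ) :
    zT C s j i ((2 ^ m) ^ 2 ^ s) = C.pos ((i + 1) * (2 ^ m) ^ (j + 2 ^ s)) := by
  unfold zT
  congr 1
  rw [add_comm j, pow_add]
  ring

/-- The value at the round `κ`. -/
theorem WM_V (g : ℕ → ℕ) (s j i κ : ℕ) :
    WM C mc ω g (labL m (Kc + 3)) s (j + 2 ^ s) i ((κ : ℤ) - H) = VN C mc ω (g s) s j i κ := by
  rw [← WM_nat]
  unfold VN cnd loB
  rw [zT_zero, zT_last, Nat.add_sub_cancel]

/-- For small indices the value is constant (`c = H - n`). -/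
theorem WM_neg {g : ℕ → ℕ} {s j i : ℕ} (hj : j + 2 ^ s ≤ n) (hH : n ≤ H) {b b' : ℤ}
    (h : b + H ≤ ((H - n : ℕ) : ℤ)) (h' : b' + H ≤ ((H - n : ℕ) : ℤ)) :
    WM C mc ω g (labL m (Kc + 3)) s (j + 2 ^ s) i b =
      WM C mc ω g (labL m (Kc + 3)) s (j + 2 ^ s) i b' := by
  rw [Nat.cast_sub hH] at h h'
  have h1 : (j : ℤ) + 1 ≤ n := by
    have h2 : 1 ≤ 2 ^ s := Nat.one_le_two_pow
    have h3 : j + 1 ≤ n := by omega
    exact_mod_cast h3
  exact WT_neg (P := clsPar m ℓ μ B w0 J S H (Kc + 3) D1) (Nat.le_add_left _ _)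
    (by push_cast; linarith) (by push_cast; linarith)

section

variable (hI : Inst2 (clsPar m ℓ μ B w0 J S H (Kc + 3) D1) m w0 Kc κr vis hid n S0 C)

include hI

variable {mc ω} in
/-- The natural values decrease. -/
theorem VN_anti (hμ : 0 < μ) {g s j i : ℕ} (hg : 0 < g) (hd : μ * g ∣ w0) (hj : j + 2 ^ s ≤ n)
    (hi : i < (2 ^ m) ^ (n - (j + 2 ^ s))) (κ : ℕ) :
    VN C mc ω g s j i (κ + 1) ≤ VN C mc ω g s j i κ := by
  rw [← WM_V mc ω (fun _ => g), ← WM_V mc ω (fun _ => g)]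
  exact WM_anti hI (fun s a => H763.labL_ne m (Kc + 3) s a) hμ (g := fun _ => g) hg hd hj hi
    (by push_cast; linarith)

variable {mc ω} in
/-- The node path of the comparison path. -/
theorem path_of (hμ : 0 < μ) {g : ℕ → ℕ} {s j i : ℕ} (hg : 0 < g s) (hd : μ * g s ∣ w0)
    (hj : j + 2 ^ s < n) (hi : i < (2 ^ m) ^ (n - (j + 2 ^ s))) :
    ∃ f : ℕ → ℕ,
      f 0 = cnd m w0 g s (j + 2 ^ s) (C.lab (j + 2 ^ s) i)
        (C.pos (i * (2 ^ m) ^ (j + 2 ^ s))) ∧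
      f ((2 ^ m) ^ 2 ^ s + 2) = cnd m w0 g s (j + 2 ^ s) (C.lab (j + 2 ^ s) i)
        (C.pos ((i + 1) * (2 ^ m) ^ (j + 2 ^ s))) ∧
      (∀ r ≤ (2 ^ m) ^ 2 ^ s + 2,
        f r < pW ((2 ^ m) ^ 2 ^ s) (g s) (labL m (Kc + 3) s (C.lab (j + 2 ^ s) i))) ∧
      ∀ κ : ℕ, (∑ r ∈ range ((2 ^ m) ^ 2 ^ s + 2),
          (nodeT C mc ω g (labL m (Kc + 3)) s (j + 2 ^ s) i ((κ : ℤ) - H) r (f r)
            (f (r + 1)) : ℝ)) ≤
        ∑ u ∈ range ((2 ^ m) ^ 2 ^ s), (C.along mc ω hI.pt hI.hid_le).C j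
            (i * (2 ^ m) ^ 2 ^ s + u) ((κ : ℤ) - H -
              (C.along mc ω hI.pt hI.hid_le).US j (2 ^ s) (i * (2 ^ m) ^ 2 ^ s + u)) +
          (64 / g s + 8 / (((2 ^ m) ^ 2 ^ s : ℕ) : ℝ) ^ 3) *
            (C.along mc ω hI.pt hI.hid_le).W (j + 2 ^ s) i := by
  obtain ⟨xs, hR⟩ := H638.exists_routeW hI hj.le hi hμ hg hd
  refine ⟨FW ((2 ^ m) ^ 2 ^ s) (g s) (loT m w0 s j (C.lab (j + 2 ^ s) i))
    (ZT m w0 j (C.lab (j + 2 ^ s) i) / g s) (labL m (Kc + 3) s (C.lab (j + 2 ^ s) i))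
    (zT C s j i) xs, ?_, ?_, ?_, ?_⟩
  · rw [H638.NetW.FW_zero, zT_zero]
    unfold cnd loB
    rw [Nat.add_sub_cancel]
  · rw [H638.NetW.FW_last, zT_last]
    unfold cnd loB
    rw [Nat.add_sub_cancel]
  · exact fun r _ => hR.net.FW_lt r
  · intro κ
    have h1 := hR.sum_le hI (mc := mc) (ω := ω) hj hi κ
    rw [← nodeW_hist]
    rw [Nat.add_sub_cancel, mul_comm (64 / (g s : ℝ) + _)]
    exact h1

/-- **(H3a) of milestone 2, for the seed `w`, without hypotheses on the path**: precision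
`64 / g + 8 / K ^ 3`. -/
theorem zfamF {mc : Mach} {N : ℤ} {Cn q : ℕ} {g : ℕ → ℕ}
    (K : Cut2 (q2 m ℓ μ B w0 J S H Kc D1 mc n N Cn q) C)
    (w : (q2 m ℓ μ B w0 J S H Kc D1 mc n N Cn q).Seed) (hμ : 0 < μ) (hH : n ≤ H)
    (hg : ∀ s, 1 ≤ s → s ≤ K.smax → 0 < g s)
    (hd : ∀ s, 1 ≤ s → s ≤ K.smax → μ * g s ∣ w0) :
    H381.ZFam (K.al w) K.smax
      (WX (K.al w) fun s J' i b =>
        (WM C mc (toRnd J w) g (labL m (Kc + 3)) s J' i b : ℝ))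
      (fun s => 64 / g s + 8 / (((2 ^ m) ^ 2 ^ s : ℕ) : ℝ) ^ 3) 0 :=
  zfamK hI K w (fun s a => H763.labL_ne m (Kc + 3) s a)
    (fun s J' a => H763.labL_desc s J' a) hμ hH hg hd
    (fun s => by positivity)
    (fun s _ _ => by
      have h1 : (0 : ℝ) ≤ g s := by positivity
      have h2 : (0 : ℝ) ≤ 8 / (((2 ^ m) ^ 2 ^ s : ℕ) : ℝ) ^ 3 := by positivity
      have h3 : (32 : ℝ) / g s ≤ 64 / g s := div_le_div_of_nonneg_right (by norm_num) h1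
      linarith)
    (fun s j i hs hs' hj hi => path_of hI hμ (hg s hs hs') (hd s hs hs') hj hi)

end

end

end Vale.Agent.P315.H244
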